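import Vale.Agent.Lib.P072.Global

/-!
# Rectangular trapping regions for autonomous ODEs on `Fin m → ℝ`
-/

open Set Metric
open scoped NNReal Topology

namespace Vale.Agent.Lib.P072

/-! ### scalar fencing lemmas -/

/-- If `φ a ≥ σ` and `φ' > 0` whenever `φ = σ`, then `φ ≥ σ` on `[a, ∞)`. -/
theorem scalar_fence_ge {φ ψ : ℝ → ℝ} {a σ : ℝ} (hd : ∀ t, a ≤ t → HasDerivAt φ (ψ t) t)
    (ha : σ ≤ φ a) (hpos : ∀ t, a ≤ t → φ t = σ → 0 < ψ t) : ∀ t, a ≤ t → σ ≤ φ t := by
  intro t ht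
  have h := image_le_of_deriv_right_lt_deriv_boundary (f := fun u => -φ u) (f' := fun u => -ψ u)
    (a := a) (b := t) (B := fun _ => -σ) (B' := fun _ => 0)
    (fun u hu => ((hd u hu.1).neg).continuousAt.continuousWithinAt)
    (fun u hu => ((hd u hu.1).neg).hasDerivWithinAt)
    (by simpa using ha) (fun u => hasDerivAt_const u (-σ))
    (fun u hu heq => by
      have : φ u = σ := by simpa using heq
      have := hpos u hu.1 this
      simpa using this)
  have := h ⟨ht, le_rfl⟩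
  simpa using this

/-- If `φ' ≥ δ > 0` whenever `φ ≤ σ`, then eventually `φ ≥ σ`. -/
theorem scalar_eventually_ge {φ ψ : ℝ → ℝ} {σ δ : ℝ} (hδ : 0 < δ)
    (hd : ∀ t, 0 ≤ t → HasDerivAt φ (ψ t) t)
    (hpos : ∀ t, 0 ≤ t → φ t ≤ σ → δ ≤ ψ t) : ∃ T, 0 ≤ T ∧ ∀ t, T ≤ t → σ ≤ φ t := by
  -- first, `φ` reaches `σ`
  have hreach : ∃ t0, 0 ≤ t0 ∧ σ ≤ φ t0 := by
    by_contra hcon
    push Not at hcon
    set t1 : ℝ := max 0 ((σ - φ 0) / δ) with ht1
    have ht1nn : 0 ≤ t1 := le_max_left _ _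
    have h := image_le_of_deriv_right_le_deriv_boundary (f := fun u => -φ u)
      (f' := fun u => -ψ u) (a := 0) (b := t1) (B := fun u => -(φ 0 + δ * u)) (B' := fun _ => -δ)
      (fun u hu => ((hd u hu.1).neg).continuousAt.continuousWithinAt)
      (fun u hu => ((hd u hu.1).neg).hasDerivWithinAt)
      (by simp)
      (by fun_prop)
      (fun u _ => by
        have h1 : HasDerivAt (fun u : ℝ => φ 0 + δ * u) δ u := by
          simpa using ((hasDerivAt_id u).const_mul δ).const_add (φ 0)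
        exact h1.neg.hasDerivWithinAt)
      (fun u hu => by
        have := hpos u hu.1 (hcon u hu.1).le
        linarith)
    have h2 := h ⟨ht1nn, le_rfl⟩
    simp only [neg_le_neg_iff] at h2
    have h3 : σ - φ 0 ≤ δ * t1 := by
      have : (σ - φ 0) / δ ≤ t1 := le_max_right _ _
      calc σ - φ 0 = δ * ((σ - φ 0) / δ) := by field_simp
        _ ≤ δ * t1 := mul_le_mul_of_nonneg_left this hδ.le
    have h4 := hcon t1 ht1nn
    linarith
  obtain ⟨t0, ht0, hσ⟩ := hreach
  refine ⟨t0, ht0, ?_⟩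
  exact scalar_fence_ge (fun t ht => hd t (ht0.trans ht)) hσ
    (fun t ht heq => lt_of_lt_of_le hδ (hpos t (ht0.trans ht) heq.le))

/-! ### clamping onto a box -/

variable {m : ℕ}

/-- coordinatewise clamp onto the box `[α, β]` -/
def clamp (α β : Fin m → ℝ) (s : Fin m → ℝ) : Fin m → ℝ := fun b => max (α b) (min (β b) (s b))

theorem clamp_mem {α β : Fin m → ℝ} (h : α ≤ β) (s : Fin m → ℝ) : clamp α β s ∈ Icc α β := by
  constructor
  · intro b; exact le_max_left _ _
  · intro b; exact max_le (h b) (min_le_left _ _)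

theorem clamp_of_mem {α β : Fin m → ℝ} {s : Fin m → ℝ} (hs : s ∈ Icc α β) : clamp α β s = s := by
  funext b
  simp only [clamp]
  rw [min_eq_right (hs.2 b), max_eq_right (hs.1 b)]

theorem clamp_lipschitz (α β : Fin m → ℝ) : LipschitzWith 1 (clamp α β) := by
  refine LipschitzWith.of_dist_le_mul fun x y => ?_
  simp only [NNReal.coe_one, one_mul]
  refine (dist_pi_le_iff dist_nonneg).2 fun b => ?_
  have h1 : LipschitzWith 1 (fun t : ℝ => max (α b) (min (β b) t)) :=
    (LipschitzWith.id.const_min (β b)).const_max (α b)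
  have h2 := h1.dist_le_mul (x b) (y b)
  simp only [NNReal.coe_one, one_mul] at h2
  exact h2.trans (dist_le_pi_dist x y b)

theorem clamp_apply_of_eq_left {α β : Fin m → ℝ} (h : α ≤ β) {s : Fin m → ℝ} {b : Fin m}
    (hs : s b = α b) : clamp α β s b = α b := by
  simp only [clamp, hs]
  rw [min_eq_right (h b), max_self]

theorem clamp_apply_of_eq_right {α β : Fin m → ℝ} (h : α ≤ β) {s : Fin m → ℝ} {b : Fin m}
    (hs : s b = β b) : clamp α β s b = β b := by
  simp only [clamp, hs]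
  rw [min_self, max_eq_right (h b)]

/-- **Existence of a global forward solution inside a box** whose faces are strictly entered by the
vector field. -/
theorem exists_solution_in_box (G : (Fin m → ℝ) → (Fin m → ℝ)) {α β : Fin m → ℝ} (hαβ : α ≤ β)
    {K : ℝ≥0} (hK : LipschitzOnWith K G (Icc α β))
    (hlo : ∀ s ∈ Icc α β, ∀ b, s b = α b → 0 < G s b)
    (hhi : ∀ s ∈ Icc α β, ∀ b, s b = β b → G s b < 0)
    {s0 : Fin m → ℝ} (hs0 : s0 ∈ Icc α β) :
    ∃ s : ℝ → Fin m → ℝ, s 0 = s0 ∧ (∀ t, 0 ≤ t → s t ∈ Icc α β) ∧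
      ∀ t, 0 ≤ t → HasDerivAt s (G (s t)) t := by
  set F : (Fin m → ℝ) → (Fin m → ℝ) := fun s => G (clamp α β s) with hF
  have hFlip : LipschitzWith K F := by
    have h1 : LipschitzOnWith (K * 1) (G ∘ clamp α β) univ :=
      hK.comp (clamp_lipschitz α β).lipschitzOnWith (fun s _ => clamp_mem hαβ s)
    rw [mul_one, lipschitzOnWith_univ] at h1
    exact h1
  obtain ⟨M, hM⟩ : ∃ M : ℝ, ∀ s ∈ Icc α β, ‖G s‖ ≤ M :=
    (isCompact_Icc).exists_bound_of_continuousOn hK.continuousOn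
  have hFbd : ∀ s, ‖F s‖ ≤ (Real.toNNReal M : ℝ≥0) := by
    intro s
    have := hM _ (clamp_mem hαβ s)
    exact this.trans (Real.le_coe_toNNReal M)
  obtain ⟨s, hs0', hs⟩ := exists_global_solution F K hFlip (Real.toNNReal M) hFbd s0
  have hcoord : ∀ b t, HasDerivAt (fun u => s u b) (F (s t) b) t := fun b t =>
    (hasDerivAt_pi.1 (hs t)) b
  have hmem : ∀ t, 0 ≤ t → s t ∈ Icc α β := by
    intro t ht
    constructor
    · intro b
      refine scalar_fence_ge (φ := fun u => s u b) (ψ := fun u => F (s u) b) (a := 0)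
        (fun u _ => hcoord b u) (by simpa [hs0'] using hs0.1 b) ?_ t ht
      intro u _ hu
      exact hlo _ (clamp_mem hαβ _) b (clamp_apply_of_eq_left hαβ hu)
    · intro b
      have := scalar_fence_ge (φ := fun u => -s u b) (ψ := fun u => -F (s u) b) (a := 0)
        (σ := -β b) (fun u _ => (hcoord b u).neg) (by simpa [hs0'] using hs0.2 b) ?_ t ht
      · simpa using this
      intro u _ hu
      have hu' : s u b = β b := by simpa using hu
      have := hhi _ (clamp_mem hαβ (s u)) b (clamp_apply_of_eq_right hαβ hu')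
      simpa [hF] using this
  refine ⟨s, hs0', hmem, fun t ht => ?_⟩
  have := hs t
  simp only [hF] at this
  rwa [clamp_of_mem (hmem t ht)] at this

/-- **Attraction from below**: if `G · b > 0` on the part of the box where `u b ≤ σ`, then every
solution in the box eventually satisfies `σ ≤ s t b`. -/
theorem eventually_ge_of_pos (G : (Fin m → ℝ) → (Fin m → ℝ)) {α β : Fin m → ℝ}
    (hG : ContinuousOn G (Icc α β)) {s : ℝ → Fin m → ℝ} (hmem : ∀ t, 0 ≤ t → s t ∈ Icc α β)
    (hd : ∀ t, 0 ≤ t → HasDerivAt s (G (s t)) t) (b : Fin m) (σ : ℝ)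
    (hpos : ∀ u ∈ Icc α β, u b ≤ σ → 0 < G u b) :
    ∃ T, 0 ≤ T ∧ ∀ t, T ≤ t → σ ≤ s t b := by
  set C : Set (Fin m → ℝ) := Icc α β ∩ {u | u b ≤ σ} with hC
  have hCcomp : IsCompact C :=
    isCompact_Icc.inter_right (isClosed_le (continuous_apply b) continuous_const)
  rcases C.eq_empty_or_nonempty with hemp | hne
  · refine ⟨0, le_rfl, fun t ht => ?_⟩
    by_contra hlt
    push Not at hlt
    have : s t ∈ C := ⟨hmem t ht, hlt.le⟩
    rw [hemp] at this
    exact this
  · have hcont : ContinuousOn (fun u => G u b) C :=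
      ((continuous_apply b).comp_continuousOn hG).mono inter_subset_left
    obtain ⟨u0, hu0, hmin⟩ := hCcomp.exists_isMinOn hne hcont
    have hδ : 0 < G u0 b := hpos u0 hu0.1 hu0.2
    refine scalar_eventually_ge (φ := fun t => s t b) (ψ := fun t => G (s t) b) hδ
      (fun t ht => (hasDerivAt_pi.1 (hd t ht)) b) ?_
    intro t ht hle
    exact hmin ⟨hmem t ht, hle⟩

/-- **Attraction from above.** -/
theorem eventually_le_of_neg (G : (Fin m → ℝ) → (Fin m → ℝ)) {α β : Fin m → ℝ}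
    (hG : ContinuousOn G (Icc α β)) {s : ℝ → Fin m → ℝ} (hmem : ∀ t, 0 ≤ t → s t ∈ Icc α β)
    (hd : ∀ t, 0 ≤ t → HasDerivAt s (G (s t)) t) (b : Fin m) (σ : ℝ)
    (hneg : ∀ u ∈ Icc α β, σ ≤ u b → G u b < 0) :
    ∃ T, 0 ≤ T ∧ ∀ t, T ≤ t → s t b ≤ σ := by
  set C : Set (Fin m → ℝ) := Icc α β ∩ {u | σ ≤ u b} with hC
  have hCcomp : IsCompact C :=
    isCompact_Icc.inter_right (isClosed_le continuous_const (continuous_apply b))
  rcases C.eq_empty_or_nonempty with hemp | hne
  · refine ⟨0, le_rfl, fun t ht => ?_⟩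
    by_contra hlt
    push Not at hlt
    have : s t ∈ C := ⟨hmem t ht, hlt.le⟩
    rw [hemp] at this
    exact this
  · have hcont : ContinuousOn (fun u => G u b) C :=
      ((continuous_apply b).comp_continuousOn hG).mono inter_subset_left
    obtain ⟨u0, hu0, hmax⟩ := hCcomp.exists_isMaxOn hne hcont
    have hδ : 0 < -G u0 b := by
      have := hneg u0 hu0.1 hu0.2
      linarith
    obtain ⟨T, hT, h⟩ := scalar_eventually_ge (φ := fun t => -s t b) (ψ := fun t => -G (s t) b)
      (σ := -σ) hδ (fun t ht => ((hasDerivAt_pi.1 (hd t ht)) b).neg) (by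
        intro t ht hle
        have hle' : σ ≤ s t b := by simpa using hle
        have := hmax (⟨hmem t ht, hle'⟩ : s t ∈ C)
        simp only [mem_ofPred_eq] at this
        linarith)
    exact ⟨T, hT, fun t ht => by simpa using h t ht⟩

/-- **Permanence in a product of intervals.** Let `G` be a `C¹` vector field on `Fin m → ℝ`, let
`I b` be intervals and `σm b ≤ σp b` points of `I b` such that, on `∏ I b`, the component `G · b` is
positive where `s b ≤ σm b` and negative where `σp b ≤ s b`. Then through every point of `∏ I b`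
there is a global forward solution staying in `∏ I b`, and it eventually lies in `[σm, σp]`. -/
theorem box_permanence (G : (Fin m → ℝ) → (Fin m → ℝ)) (hG : ContDiff ℝ 1 G)
    (I : Fin m → Set ℝ) (hI : ∀ b, (I b).OrdConnected) (σm σp : Fin m → ℝ)
    (hm : ∀ b, σm b ∈ I b) (hp : ∀ b, σp b ∈ I b)
    (hlo : ∀ s : Fin m → ℝ, (∀ b, s b ∈ I b) → ∀ b, s b ≤ σm b → 0 < G s b)
    (hhi : ∀ s : Fin m → ℝ, (∀ b, s b ∈ I b) → ∀ b, σp b ≤ s b → G s b < 0)
    (s0 : Fin m → ℝ) (hs0 : ∀ b, s0 b ∈ I b) :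
    ∃ s : ℝ → Fin m → ℝ, s 0 = s0 ∧ (∀ t, 0 ≤ t → ∀ b, s t b ∈ I b) ∧
      (∀ t, 0 ≤ t → HasDerivAt s (G (s t)) t) ∧ ∃ T : ℝ, ∀ t, T ≤ t → s t ∈ Icc σm σp := by
  set α : Fin m → ℝ := fun b => min (s0 b) (σm b) with hα
  set β : Fin m → ℝ := fun b => max (s0 b) (σp b) with hβ
  have hαI : ∀ b, α b ∈ I b := fun b => by
    simp only [hα]
    rcases min_choice (s0 b) (σm b) with h | h <;> rw [h]
    · exact hs0 b
    · exact hm b
  have hβI : ∀ b, β b ∈ I b := fun b => by
    simp only [hβ]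
    rcases max_choice (s0 b) (σp b) with h | h <;> rw [h]
    · exact hs0 b
    · exact hp b
  have hαβ : α ≤ β := fun b => (min_le_left _ _).trans (le_max_left _ _)
  have hbox : ∀ s ∈ Icc α β, ∀ b, s b ∈ I b := fun s hs b =>
    (hI b).out (hαI b) (hβI b) ⟨hs.1 b, hs.2 b⟩
  have hs0box : s0 ∈ Icc α β := ⟨fun b => min_le_left _ _, fun b => le_max_left _ _⟩
  obtain ⟨K, hK⟩ := hG.contDiffOn.exists_lipschitzOnWith (s := Icc α β) one_ne_zero
    (convex_Icc α β) isCompact_Icc
  obtain ⟨s, hs0', hmem, hd⟩ := exists_solution_in_box G hαβ hK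
    (fun s hs b hb => hlo s (hbox s hs) b (hb.le.trans (min_le_right _ _)))
    (fun s hs b hb => hhi s (hbox s hs) b ((le_max_right _ _).trans hb.ge)) hs0box
  refine ⟨s, hs0', fun t ht => hbox _ (hmem t ht), hd, ?_⟩
  have h1 : ∀ b, ∃ T, 0 ≤ T ∧ ∀ t, T ≤ t → σm b ≤ s t b := fun b =>
    eventually_ge_of_pos G hK.continuousOn hmem hd b (σm b)
      (fun u hu hb => hlo u (hbox u hu) b hb)
  have h2 : ∀ b, ∃ T, 0 ≤ T ∧ ∀ t, T ≤ t → s t b ≤ σp b := fun b =>
    eventually_le_of_neg G hK.continuousOn hmem hd b (σp b)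
      (fun u hu hb => hhi u (hbox u hu) b hb)
  choose T1 hT1 hT1' using h1
  choose T2 hT2 hT2' using h2
  refine ⟨∑ b, (T1 b + T2 b), fun t ht => ⟨fun b => ?_, fun b => ?_⟩⟩
  · refine hT1' b t (le_trans ?_ ht)
    have := Finset.single_le_sum (f := fun b => T1 b + T2 b)
      (fun b _ => add_nonneg (hT1 b) (hT2 b)) (Finset.mem_univ b)
    linarith [hT2 b]
  · refine hT2' b t (le_trans ?_ ht)
    have := Finset.single_le_sum (f := fun b => T1 b + T2 b)
      (fun b _ => add_nonneg (hT1 b) (hT2 b)) (Finset.mem_univ b)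
    linarith [hT1 b]

end Vale.Agent.Lib.P072
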