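import Mathlib

/-!
# Mass-action systems: definitions (problem P072)
-/

open Set

namespace Vale.Agent.Lib.P072

/-- A complex on `d` species: a vector of nonnegative integers. -/
abbrev Cx (d : ℕ) := Fin d → ℕ

/-- A reaction `y → y'` is the pair `(y, y')`. -/
abbrev Rx (d : ℕ) := Cx d × Cx d

variable {d : ℕ}

/-- The reaction vector `y' - y` of the reaction `y → y'`. -/
def rvec (r : Rx d) : Fin d → ℝ := fun i => (r.2 i : ℝ) - (r.1 i : ℝ)

/-- The monomial `x ^ y = ∏ i, x i ^ y i`. -/
def mon (x : Fin d → ℝ) (y : Cx d) : ℝ := ∏ i, x i ^ y i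

/-- The mass-action vector field `f x = ∑_{y → y'} k_{y → y'} x ^ y (y' - y)`. -/
def field (R : Finset (Rx d)) (k : Rx d → ℝ) (x : Fin d → ℝ) : Fin d → ℝ :=
  ∑ r ∈ R, (k r * mon x r.1) • rvec r

/-- Weak reversibility: for every reaction `y → y'` there is a directed path from `y'` to `y`. -/
def WeaklyReversible (R : Finset (Rx d)) : Prop :=
  ∀ r ∈ R, Relation.ReflTransGen (fun a b => (a, b) ∈ R) r.2 r.1

/-- The stoichiometric subspace: the real span of the reaction vectors. -/
def stoich (R : Finset (Rx d)) : Submodule ℝ (Fin d → ℝ) :=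
  Submodule.span ℝ (rvec '' (R : Set (Rx d)))

/-- The positive stoichiometric class of `c`. -/
def posClass (R : Finset (Rx d)) (c : Fin d → ℝ) : Set (Fin d → ℝ) :=
  {x | (∀ i, 0 < x i) ∧ x - c ∈ stoich R}

/-- `x` is a positive solution of the mass-action system on the time interval `[0, T)`. -/
def IsSolOn (R : Finset (Rx d)) (k : Rx d → ℝ) (x : ℝ → Fin d → ℝ) (T : ℝ) : Prop :=
  ∀ t, 0 ≤ t → t < T → (∀ i, 0 < x t i) ∧ HasDerivWithinAt x (field R k (x t)) (Ici 0) t

/-- `x` is a positive solution of the mass-action system on `[0, ∞)`. -/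
def IsSol (R : Finset (Rx d)) (k : Rx d → ℝ) (x : ℝ → Fin d → ℝ) : Prop :=
  ∀ t, 0 ≤ t → (∀ i, 0 < x t i) ∧ HasDerivWithinAt x (field R k (x t)) (Ici 0) t

/-- Permanence on the positive stoichiometric class `P` of `c`: through every point of `P` there is
a positive solution defined for all `t ≥ 0`, of which every positive solution on an interval
`[0, T)` with the same initial value is a restriction; and there is a compact set `K ⊆ P` that
every solution starting in `P` enters and never leaves after some time. -/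
def Permanent (R : Finset (Rx d)) (k : Rx d → ℝ) (c : Fin d → ℝ) : Prop :=
  (∀ x0 ∈ posClass R c, ∃ x : ℝ → Fin d → ℝ, x 0 = x0 ∧ IsSol R k x ∧
      ∀ T : ℝ, ∀ y : ℝ → Fin d → ℝ, y 0 = x0 → IsSolOn R k y T → ∀ t, 0 ≤ t → t < T → y t = x t) ∧
  ∃ K : Set (Fin d → ℝ), IsCompact K ∧ K ⊆ posClass R c ∧
    ∀ x : ℝ → Fin d → ℝ, x 0 ∈ posClass R c → IsSol R k x → ∃ T : ℝ, ∀ t, T ≤ t → x t ∈ K

end Vale.Agent.Lib.P072
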