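import Mathlib

/-!
# Global existence for bounded Lipschitz autonomous vector fields
-/

open Set Metric
open scoped NNReal Topology

namespace Vale.Agent.Lib.P072

variable {E : Type*} [NormedAddCommGroup E] [NormedSpace ℝ E] [CompleteSpace E]

/-- A solution on the open interval `(-T, T)`. -/
theorem exists_solution_Ioo (F : E → E) (K : ℝ≥0) (hK : LipschitzWith K F) (M : ℝ≥0)
    (hM : ∀ x, ‖F x‖ ≤ M) (x0 : E) (T : ℝ≥0) :
    ∃ x : ℝ → E, x 0 = x0 ∧ ∀ t ∈ Ioo (-(T : ℝ)) T, HasDerivAt x (F (x t)) t := by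
  have h0 : (0 : ℝ) ∈ Icc (-(T : ℝ)) T := ⟨by simp, by simp⟩
  have hpl : IsPicardLindelof (fun _ : ℝ => F) (tmin := -(T : ℝ)) (tmax := T) ⟨0, h0⟩ x0
      (M * T) 0 M K := by
    refine ⟨fun t _ => hK.lipschitzOnWith, fun x _ => continuousOn_const, fun t _ x _ => hM x, ?_⟩
    simp
  obtain ⟨α, hα0, hα⟩ := hpl.exists_eq_forall_mem_Icc_hasDerivWithinAt₀
  refine ⟨α, hα0, fun t ht => ?_⟩
  exact (hα t (Ioo_subset_Icc_self ht)).hasDerivAt (Icc_mem_nhds ht.1 ht.2)

/-- Global solutions of `x' = F x` for a bounded Lipschitz vector field `F`. -/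
theorem exists_global_solution (F : E → E) (K : ℝ≥0) (hK : LipschitzWith K F) (M : ℝ≥0)
    (hM : ∀ x, ‖F x‖ ≤ M) (x0 : E) :
    ∃ x : ℝ → E, x 0 = x0 ∧ ∀ t, HasDerivAt x (F (x t)) t := by
  have hex : ∀ a : ℝ, ∃ x : ℝ → E, x 0 = x0 ∧
      ∀ t ∈ Ioo (-(|a| + 1)) (|a| + 1), HasDerivAt x (F (x t)) t := by
    intro a
    have hpos : 0 ≤ |a| + 1 := by positivity
    exact exists_solution_Ioo F K hK M hM x0 ⟨|a| + 1, hpos⟩
  choose γ hγ0 hγ using hex
  -- any two members of the family agree on the smaller interval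
  have hagree : ∀ a a' t : ℝ, |t| < |a| + 1 → |t| < |a'| + 1 → γ a t = γ a' t := by
    intro a a' t h1 h2
    set m := min (|a| + 1) (|a'| + 1) with hm
    have hmpos : 0 < m := lt_min (by positivity) (by positivity)
    have htm : t ∈ Ioo (-m) m := by
      have : |t| < m := lt_min h1 h2
      exact abs_lt.1 this
    have h0m : (0 : ℝ) ∈ Ioo (-m) m := ⟨by linarith, hmpos⟩
    refine ODE_solution_unique_of_mem_Ioo (v := fun _ => F) (s := fun _ => univ) (K := K)
      (fun t _ => hK.lipschitzOnWith) h0m ?_ ?_ (by rw [hγ0, hγ0]) htm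
    · intro u hu
      refine ⟨hγ a u ⟨?_, ?_⟩, mem_univ _⟩
      · have := min_le_left (|a| + 1) (|a'| + 1); linarith [hu.1]
      · have := min_le_left (|a| + 1) (|a'| + 1); linarith [hu.2]
    · intro u hu
      refine ⟨hγ a' u ⟨?_, ?_⟩, mem_univ _⟩
      · have := min_le_right (|a| + 1) (|a'| + 1); linarith [hu.1]
      · have := min_le_right (|a| + 1) (|a'| + 1); linarith [hu.2]
  refine ⟨fun t => γ t t, hγ0 0, fun t => ?_⟩
  have ht : t ∈ Ioo (-(|t| + 1)) (|t| + 1) := by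
    have : |t| < |t| + 1 := lt_add_one _
    exact abs_lt.1 this
  have hd := hγ t t ht
  refine hd.congr_of_eventuallyEq ?_
  filter_upwards [Ioo_mem_nhds ht.1 ht.2] with u hu
  exact hagree u t u (lt_add_one _) (abs_lt.2 hu)

end Vale.Agent.Lib.P072
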