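import Vale.Agent.Lib.P072.Defs

/-!
# The sign lemma for a family of linkage classes lying on parallel lines
-/

open Set Filter
open scoped Topology

namespace Vale.Agent.Lib.P072

variable {d : ℕ}

theorem mon_pos {x : Fin d → ℝ} (hx : ∀ i, 0 < x i) (y : Cx d) : 0 < mon x y :=
  Finset.prod_pos fun i _ => pow_pos (hx i) _

theorem mon_eq_exp {x : Fin d → ℝ} (hx : ∀ i, 0 < x i) (y : Cx d) :
    mon x y = Real.exp (∑ i, (y i : ℝ) * Real.log (x i)) := by
  rw [Real.exp_sum]
  refine Finset.prod_congr rfl fun i _ => ?_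
  rw [Real.exp_nat_mul, Real.exp_log (hx i)]

theorem mon_shift {x : Fin d → ℝ} (hx : ∀ i, 0 < x i) {y z : Cx d} {w : Fin d → ℝ} {μ : ℝ}
    (h : ∀ i, (y i : ℝ) = z i + μ * w i) :
    mon x y = mon x z * Real.exp (μ * ∑ i, w i * Real.log (x i)) := by
  rw [mon_eq_exp hx, mon_eq_exp hx, ← Real.exp_add]
  congr 1
  rw [Finset.mul_sum, ← Finset.sum_add_distrib]
  refine Finset.sum_congr rfl fun i _ => ?_
  rw [h i]; ring

theorem rvec_ne_zero {r : Rx d} (h : r.1 ≠ r.2) : rvec r ≠ 0 := by
  intro h0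
  apply h
  funext i
  have := congrFun h0 i
  simp only [rvec, Pi.zero_apply, sub_eq_zero] at this
  exact_mod_cast this.symm

section

variable (R : Finset (Rx d)) (hne : ∀ r ∈ R, r.1 ≠ r.2) (hwr : WeaklyReversible R)

include hne hwr in
/-- In a weakly reversible network the target of a reaction is the source of some reaction. -/
theorem exists_source_of_target {r : Rx d} (hr : r ∈ R) : ∃ r' ∈ R, r'.1 = r.2 := by
  rcases Relation.ReflTransGen.cases_head (hwr r hr) with h | ⟨c, hc, _⟩
  · exact absurd h.symm (hne r hr)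
  · exact ⟨(r.2, c), hc, rfl⟩

variable (p : Cx d → Prop) (hp : ∀ r ∈ R, p r.1 ↔ p r.2) (w : Fin d → ℝ) (lam : Rx d → ℝ)
  (hlam : ∀ r ∈ R, p r.1 → rvec r = lam r • w)

include hp hlam in
/-- Complexes reachable from a complex `y` of the family stay in the family and differ from `y` by
a multiple of `w`. -/
theorem reach_inv {y z : Cx d} (hy : p y)
    (h : Relation.ReflTransGen (fun a b => (a, b) ∈ R) y z) :
    p z ∧ ∃ c : ℝ, ∀ i, (z i : ℝ) - y i = c * w i := by
  induction h with
  | refl => exact ⟨hy, 0, fun i => by simp⟩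
  | @tail u v _ hstep ih =>
    obtain ⟨hpu, c, hc⟩ := ih
    refine ⟨(hp (u, v) hstep).1 hpu, c + lam (u, v), fun i => ?_⟩
    have h1 := congrFun (hlam (u, v) hstep hpu) i
    simp only [rvec, Pi.smul_apply, smul_eq_mul] at h1
    have h2 := hc i
    linarith

include hne hwr hp hlam in
/-- Every reaction of the family pointing in the direction `-w` is dominated by a reaction pointing
in the direction `w` whose source lies lower on the same line. -/
theorem exists_dominating {r : Rx d} (hr : r ∈ R) (hpr : p r.1) :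
    ∃ r' ∈ R, p r'.1 ∧ 0 < lam r' ∧ ∃ μ : ℝ, -lam r ≤ μ ∧ ∀ i, (r.1 i : ℝ) = r'.1 i + μ * w i := by
  classical
  -- a coordinate on which `w` does not vanish
  have hw : ∃ i0, w i0 ≠ 0 := by
    by_contra hcon
    push Not at hcon
    apply rvec_ne_zero (hne r hr)
    rw [hlam r hr hpr]
    funext i
    simp [hcon i]
  obtain ⟨i0, hi0⟩ := hw
  set ht : Cx d → ℝ := fun y => (y i0 : ℝ) / w i0 with hht
  have hht_step : ∀ q ∈ R, p q.1 → ht q.2 = ht q.1 + lam q := by
    intro q hq hpq
    have h1 := congrFun (hlam q hq hpq) i0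
    simp only [rvec, Pi.smul_apply, smul_eq_mul] at h1
    simp only [hht]
    field_simp
    linarith
  set Z : Finset (Cx d) := (R.image Prod.fst).filter
    (fun z => Relation.ReflTransGen (fun a b => (a, b) ∈ R) r.1 z) with hZ
  have hyZ : r.1 ∈ Z := by
    simp only [hZ, Finset.mem_filter, Finset.mem_image]
    exact ⟨⟨r, hr, rfl⟩, Relation.ReflTransGen.refl⟩
  obtain ⟨z, hzZ, hzmin⟩ := Finset.exists_min_image Z ht ⟨r.1, hyZ⟩
  simp only [hZ, Finset.mem_filter, Finset.mem_image] at hzZ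
  obtain ⟨⟨r', hr', hr'z⟩, hreach⟩ := hzZ
  obtain ⟨hpz, c, hc⟩ := reach_inv R p hp w lam hlam hpr hreach
  have hpr' : p r'.1 := by rw [hr'z]; exact hpz
  -- the target of `r'` belongs to `Z`
  have hr'2 : r'.2 ∈ Z := by
    simp only [hZ, Finset.mem_filter, Finset.mem_image]
    refine ⟨exists_source_of_target R hne hwr hr', ?_⟩
    refine hreach.tail ?_
    rw [← hr'z]
    exact hr'
  have hr2 : r.2 ∈ Z := by
    simp only [hZ, Finset.mem_filter, Finset.mem_image]
    exact ⟨exists_source_of_target R hne hwr hr, Relation.ReflTransGen.single hr⟩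
  have h1 : 0 ≤ lam r' := by
    have := hzmin r'.2 hr'2
    rw [hht_step r' hr' hpr', hr'z] at this
    linarith
  have h2 : lam r' ≠ 0 := by
    intro h0
    apply rvec_ne_zero (hne r' hr')
    rw [hlam r' hr' hpr', h0, zero_smul]
  have h3 : ht z ≤ ht r.1 + lam r := by
    have := hzmin r.2 hr2
    rwa [hht_step r hr hpr] at this
  have hcval : c = ht z - ht r.1 := by
    have := hc i0
    simp only [hht]
    field_simp
    linarith
  refine ⟨r', hr', hpr', lt_of_le_of_ne h1 (Ne.symm h2), ht r.1 - ht z, by linarith, fun i => ?_⟩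
  have := hc i
  rw [hr'z]
  rw [hcval] at this
  linarith

include hne hwr hp hlam in
/-- **Sign lemma.** If `∑ i, w i * log (x i)` is very negative, the total rate of the family in the
direction `w` is positive. -/
theorem sign_lemma (k : Rx d → ℝ) (hk : ∀ r ∈ R, 0 < k r) [DecidablePred fun r : Rx d => p r.1]
    (hex : ∃ r ∈ R, p r.1) :
    ∃ Λ : ℝ, ∀ x : Fin d → ℝ, (∀ i, 0 < x i) → ∑ i, w i * Real.log (x i) ≤ -Λ →
      0 < ∑ r ∈ R.filter (fun r => p r.1), k r * mon x r.1 * lam r := by
  classical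
  set B : Finset (Rx d) := R.filter (fun r => p r.1) with hB
  have hBR : ∀ r ∈ B, r ∈ R ∧ p r.1 := fun r hr => by simpa [hB] using hr
  have hlam0 : ∀ r ∈ B, lam r ≠ 0 := by
    intro r hr h0
    apply rvec_ne_zero (hne r (hBR r hr).1)
    rw [hlam r (hBR r hr).1 (hBR r hr).2, h0, zero_smul]
  set N : ℝ := 2 * (B.card : ℝ) with hN
  have hBpos : 0 < (B.card : ℝ) := by
    obtain ⟨r, hr, hpr⟩ := hex
    have : 0 < B.card := Finset.card_pos.2 ⟨r, by simp [hB, hr, hpr]⟩
    exact_mod_cast this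
  -- choice of the threshold
  have hev : ∀ᶠ Λ : ℝ in atTop, ∀ r ∈ B, ∀ r' ∈ B, lam r < 0 → 0 < lam r' →
      k r * (-lam r) * Real.exp (lam r * Λ) * N ≤ k r' * lam r' := by
    rw [Filter.eventually_all_finset]
    intro r _
    rw [Filter.eventually_all_finset]
    intro r' hr'
    rw [eventually_imp_distrib_left]
    intro hneg
    rw [eventually_imp_distrib_left]
    intro hpos
    have hlim : Tendsto (fun Λ : ℝ => k r * (-lam r) * Real.exp (lam r * Λ) * N) atTop
        (𝓝 (k r * (-lam r) * 0 * N)) := by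
      refine Tendsto.mul_const N (Tendsto.const_mul _ ?_)
      exact Real.tendsto_exp_atBot.comp (tendsto_id.const_mul_atTop_of_neg hneg)
    have hpos' : k r * (-lam r) * 0 * N < k r' * lam r' := by
      have := mul_pos (hk r' (hBR r' hr').1) hpos
      simpa using this
    exact (hlim.eventually (gt_mem_nhds hpos')).mono fun _ h => le_of_lt h
  obtain ⟨Λ, hΛ, hΛ0⟩ := (hev.and (eventually_ge_atTop 0)).exists
  refine ⟨Λ, fun x hx hℓ => ?_⟩
  set ℓ : ℝ := ∑ i, w i * Real.log (x i) with hℓdef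
  set term : Rx d → ℝ := fun r => k r * mon x r.1 * lam r with hterm
  set Up : Finset (Rx d) := B.filter (fun r => 0 < lam r) with hUp
  set Dn : Finset (Rx d) := B.filter (fun r => ¬ 0 < lam r) with hDn
  set U : ℝ := ∑ r ∈ Up, term r with hU
  have hsplit : ∑ r ∈ B, term r = U + ∑ r ∈ Dn, term r :=
    (Finset.sum_filter_add_sum_filter_not B (fun r => 0 < lam r) term).symm
  have hterm_pos : ∀ r ∈ Up, 0 < term r := by
    intro r hr
    have hr' := Finset.mem_filter.1 hr
    exact mul_pos (mul_pos (hk r (hBR r hr'.1).1) (mon_pos hx _)) hr'.2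
  have hle_U : ∀ r ∈ Up, term r ≤ U :=
    fun r hr => Finset.single_le_sum (fun q hq => (hterm_pos q hq).le) hr
  -- each negative term is small
  have hDn_bound : ∀ r ∈ Dn, -(U / N) ≤ term r := by
    intro r hr
    have hr' := Finset.mem_filter.1 hr
    have hneg : lam r < 0 := lt_of_le_of_ne (not_lt.1 hr'.2) (hlam0 r hr'.1)
    obtain ⟨q, hqR, hpq, hqpos, μ, hμ, hshift⟩ :=
      exists_dominating R hne hwr p hp w lam hlam (hBR r hr'.1).1 (hBR r hr'.1).2
    have hqB : q ∈ B := by simp [hB, hqR, hpq]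
    have hqUp : q ∈ Up := Finset.mem_filter.2 ⟨hqB, hqpos⟩
    have hmon : mon x r.1 = mon x q.1 * Real.exp (μ * ℓ) := mon_shift hx hshift
    have hexp : Real.exp (μ * ℓ) ≤ Real.exp (lam r * Λ) := by
      apply Real.exp_le_exp.2
      have h1 : μ * ℓ ≤ μ * (-Λ) := mul_le_mul_of_nonneg_left hℓ (by linarith)
      have h2 : μ * (-Λ) ≤ (-lam r) * (-Λ) := mul_le_mul_of_nonpos_right hμ (by linarith)
      linarith
    have hkey := hΛ r hr'.1 q hqB hneg hqpos
    have hNpos : 0 < N := by positivity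
    have hkr := hk r (hBR r hr'.1).1
    have hmq := mon_pos hx q.1
    -- `-term r ≤ term q / N ≤ U / N`
    have h1 : -term r = k r * (-lam r) * Real.exp (μ * ℓ) * mon x q.1 := by
      simp only [hterm, hmon]; ring
    have h2 : k r * (-lam r) * Real.exp (μ * ℓ) ≤ k r * (-lam r) * Real.exp (lam r * Λ) :=
      mul_le_mul_of_nonneg_left hexp (mul_nonneg hkr.le (by linarith))
    have h3 : k r * (-lam r) * Real.exp (lam r * Λ) ≤ k q * lam q / N := by
      rw [le_div_iff₀ hNpos]; exact hkey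
    have h4 : -term r ≤ term q / N := by
      rw [h1]
      calc k r * (-lam r) * Real.exp (μ * ℓ) * mon x q.1
          ≤ (k q * lam q / N) * mon x q.1 := mul_le_mul_of_nonneg_right (h2.trans h3) hmq.le
        _ = term q / N := by simp only [hterm]; ring
    have h5 : term q / N ≤ U / N := div_le_div_of_nonneg_right (hle_U q hqUp) hNpos.le
    linarith
  have hUpne : Up.Nonempty := by
    obtain ⟨r, hr, hpr⟩ := hex
    have hrB : r ∈ B := by simp [hB, hr, hpr]
    by_cases hpos : 0 < lam r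
    · exact ⟨r, Finset.mem_filter.2 ⟨hrB, hpos⟩⟩
    · have hneg : lam r < 0 := lt_of_le_of_ne (not_lt.1 hpos) (hlam0 r hrB)
      obtain ⟨q, hqR, hpq, hqpos, -⟩ := exists_dominating R hne hwr p hp w lam hlam hr hpr
      exact ⟨q, Finset.mem_filter.2 ⟨by simp [hB, hqR, hpq], hqpos⟩⟩
  have hUpos : 0 < U := Finset.sum_pos hterm_pos hUpne
  have hsumDn : -(U / 2) ≤ ∑ r ∈ Dn, term r := by
    have h1 : Dn.card • (-(U / N)) ≤ ∑ r ∈ Dn, term r := Finset.card_nsmul_le_sum Dn term _ hDn_bound
    have h2 : (Dn.card : ℝ) ≤ B.card := by exact_mod_cast Finset.card_filter_le _ _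
    have h3 : (Dn.card : ℝ) * (U / N) ≤ U / 2 := by
      have : (Dn.card : ℝ) * (U / N) ≤ (B.card : ℝ) * (U / N) :=
        mul_le_mul_of_nonneg_right h2 (by positivity)
      have h4 : (B.card : ℝ) * (U / N) = U / 2 := by
        simp only [hN]; field_simp
      linarith
    rw [nsmul_eq_mul] at h1
    linarith
  rw [hsplit]
  linarith

end

end Vale.Agent.Lib.P072
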