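import Mathlib

/-!
# The function `σ ↦ ∑ i, w i * log (c i + σ * w i)` along a line in the positive orthant
-/

open Set

namespace Vale.Agent.Lib.P072

variable {d : ℕ}

theorem term_mono {c w σ σ' : ℝ} (h : σ' ≤ σ) (h1 : 0 < c + σ' * w) (h2 : 0 < c + σ * w) :
    w * Real.log (c + σ' * w) ≤ w * Real.log (c + σ * w) := by
  rcases le_or_gt 0 w with hw | hw
  · refine mul_le_mul_of_nonneg_left (Real.log_le_log h1 ?_) hw
    have := mul_le_mul_of_nonneg_right h hw
    linarith
  · refine mul_le_mul_of_nonpos_left (Real.log_le_log h2 ?_) hw.le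
    have := mul_le_mul_of_nonpos_right h hw.le
    linarith

theorem sum_mono {c w : Fin d → ℝ} {σ σ' : ℝ} (h : σ' ≤ σ) (h1 : ∀ i, 0 < c i + σ' * w i)
    (h2 : ∀ i, 0 < c i + σ * w i) :
    ∑ i, w i * Real.log (c i + σ' * w i) ≤ ∑ i, w i * Real.log (c i + σ * w i) :=
  Finset.sum_le_sum fun i _ => term_mono h (h1 i) (h2 i)

/-- Isolating one term and bounding the others by their value at `σ = 0`. -/
theorem sum_le_single {c w : Fin d → ℝ} (hc : ∀ i, 0 < c i) {σ : ℝ} (hσ : σ ≤ 0)
    (h1 : ∀ i, 0 < c i + σ * w i) (j : Fin d) :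
    ∑ i, w i * Real.log (c i + σ * w i) ≤
      w j * Real.log (c j + σ * w j) + ∑ i ∈ Finset.univ.erase j, w i * Real.log (c i) := by
  rw [← Finset.add_sum_erase Finset.univ _ (Finset.mem_univ j)]
  refine add_le_add le_rfl (Finset.sum_le_sum fun i _ => ?_)
  have := term_mono (c := c i) (w := w i) hσ (h1 i) (by simpa using hc i)
  simpa using this

/-- **Lower threshold.** Moving far enough in the direction `-w` inside the positive orthant makes
`∑ i, w i * log (x i)` as negative as we wish. -/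
theorem exists_lower_threshold (c w : Fin d → ℝ) (hc : ∀ i, 0 < c i) (hw : w ≠ 0) (Λ : ℝ) :
    ∃ σ : ℝ, σ ≤ 0 ∧ (∀ i, 0 < c i + σ * w i) ∧
      ∀ σ' : ℝ, σ' ≤ σ → (∀ i, 0 < c i + σ' * w i) →
        ∑ i, w i * Real.log (c i + σ' * w i) ≤ -Λ := by
  suffices h : ∃ σ : ℝ, σ ≤ 0 ∧ (∀ i, 0 < c i + σ * w i) ∧
      ∑ i, w i * Real.log (c i + σ * w i) ≤ -Λ by
    obtain ⟨σ, h0, hpos, hle⟩ := h
    exact ⟨σ, h0, hpos, fun σ' hσ' hpos' => (sum_mono hσ' hpos' hpos).trans hle⟩
  by_cases hex : ∃ i, 0 < w i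
  · -- some coordinate decreases to zero
    obtain ⟨i1, hi1⟩ := hex
    obtain ⟨j, hjmem, hjmin⟩ := Finset.exists_min_image
      (Finset.univ.filter fun i => 0 < w i) (fun i => c i / w i)
      ⟨i1, by simp [hi1]⟩
    have hwj : 0 < w j := by simpa using hjmem
    set M : ℝ := ∑ i ∈ Finset.univ.erase j, w i * Real.log (c i) with hM
    set θ : ℝ := min 1 (Real.exp ((-Λ - M) / w j) / c j) with hθ
    have hθpos : 0 < θ := lt_min one_pos (div_pos (Real.exp_pos _) (hc j))
    have hθ1 : θ ≤ 1 := min_le_left _ _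
    set σ : ℝ := -(c j / w j) * (1 - θ) with hσ
    have hq : 0 < c j / w j := div_pos (hc j) hwj
    have hσ0 : σ ≤ 0 := by
      have : 0 ≤ (c j / w j) * (1 - θ) := mul_nonneg hq.le (by linarith)
      simp only [hσ]; linarith
    have hposall : ∀ i, 0 < c i + σ * w i := by
      intro i
      rcases lt_or_ge 0 (w i) with hwi | hwi
      · have h1 : c j / w j ≤ c i / w i := hjmin i (by simp [hwi])
        have h2 : (c j / w j) * (1 - θ) * w i ≤ (c i / w i) * (1 - θ) * w i := by
          refine mul_le_mul_of_nonneg_right (mul_le_mul_of_nonneg_right h1 (by linarith)) hwi.le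
        have h3 : (c i / w i) * (1 - θ) * w i = c i * (1 - θ) := by field_simp
        have h4 : 0 < c i * θ := mul_pos (hc i) hθpos
        simp only [hσ]
        nlinarith
      · have : 0 ≤ σ * w i := mul_nonneg_of_nonpos_of_nonpos hσ0 hwi
        linarith [hc i]
    have hcj : c j + σ * w j = c j * θ := by
      simp only [hσ]; field_simp; ring
    refine ⟨σ, hσ0, hposall, (sum_le_single hc hσ0 hposall j).trans ?_⟩
    rw [hcj]
    have h5 : c j * θ ≤ Real.exp ((-Λ - M) / w j) := by
      have : θ ≤ Real.exp ((-Λ - M) / w j) / c j := min_le_right _ _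
      calc c j * θ ≤ c j * (Real.exp ((-Λ - M) / w j) / c j) :=
            mul_le_mul_of_nonneg_left this (hc j).le
        _ = Real.exp ((-Λ - M) / w j) := by
            have hne : c j ≠ 0 := (hc j).ne'
            field_simp
    have h6 : Real.log (c j * θ) ≤ (-Λ - M) / w j := by
      have := Real.log_le_log (mul_pos (hc j) hθpos) h5
      rwa [Real.log_exp] at this
    have h7 : w j * Real.log (c j * θ) ≤ w j * ((-Λ - M) / w j) :=
      mul_le_mul_of_nonneg_left h6 hwj.le
    have h8 : w j * ((-Λ - M) / w j) = -Λ - M := by field_simp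
    linarith
  · -- all coordinates are nondecreasing in the direction `-w`, one of them is unbounded
    push Not at hex
    obtain ⟨j, hj⟩ : ∃ j, w j ≠ 0 := by
      by_contra hcon
      push Not at hcon
      exact hw (funext hcon)
    have hwj : w j < 0 := lt_of_le_of_ne (hex j) hj
    set M : ℝ := ∑ i ∈ Finset.univ.erase j, w i * Real.log (c i) with hM
    set τ : ℝ := Real.exp ((Λ + M) / (-w j)) / (-w j) with hτ
    have hτpos : 0 < τ := div_pos (Real.exp_pos _) (by linarith)
    have hposall : ∀ i, 0 < c i + (-τ) * w i := by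
      intro i
      have : 0 ≤ (-τ) * w i := mul_nonneg_of_nonpos_of_nonpos (by linarith) (hex i)
      linarith [hc i]
    refine ⟨-τ, by linarith, hposall, (sum_le_single hc (by linarith) hposall j).trans ?_⟩
    have hcj : c j + (-τ) * w j = c j + Real.exp ((Λ + M) / (-w j)) := by
      have hne : -w j ≠ 0 := by linarith
      simp only [hτ]; field_simp
    rw [hcj]
    have h5 : Real.exp ((Λ + M) / (-w j)) ≤ c j + Real.exp ((Λ + M) / (-w j)) := by
      linarith [hc j]
    have h6 : (Λ + M) / (-w j) ≤ Real.log (c j + Real.exp ((Λ + M) / (-w j))) := by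
      have := Real.log_le_log (Real.exp_pos _) h5
      rwa [Real.log_exp] at this
    have h7 : w j * Real.log (c j + Real.exp ((Λ + M) / (-w j))) ≤ w j * ((Λ + M) / (-w j)) :=
      mul_le_mul_of_nonpos_left h6 hwj.le
    have h8 : w j * ((Λ + M) / (-w j)) = -(Λ + M) := by
      have hne : -w j ≠ 0 := by linarith
      field_simp
    linarith

/-- **Upper threshold.** -/
theorem exists_upper_threshold (c w : Fin d → ℝ) (hc : ∀ i, 0 < c i) (hw : w ≠ 0) (Λ : ℝ) :
    ∃ σ : ℝ, 0 ≤ σ ∧ (∀ i, 0 < c i + σ * w i) ∧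
      ∀ σ' : ℝ, σ ≤ σ' → (∀ i, 0 < c i + σ' * w i) →
        Λ ≤ ∑ i, w i * Real.log (c i + σ' * w i) := by
  obtain ⟨σ, h0, hpos, h⟩ := exists_lower_threshold c (-w) hc (neg_ne_zero.2 hw) Λ
  refine ⟨-σ, by linarith, fun i => ?_, fun σ' hσ' hpos' => ?_⟩
  · have := hpos i
    simp only [Pi.neg_apply] at this
    linarith
  · have h1 := h (-σ') (by linarith) (fun i => by
      have := hpos' i
      simp only [Pi.neg_apply]
      linarith)
    have h2 : ∑ i, (-w) i * Real.log (c i + -σ' * (-w) i)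
        = -∑ i, w i * Real.log (c i + σ' * w i) := by
      rw [← Finset.sum_neg_distrib]
      refine Finset.sum_congr rfl fun i _ => ?_
      simp only [Pi.neg_apply]
      rw [neg_mul_neg, neg_mul]
    rw [h2] at h1
    linarith

end Vale.Agent.Lib.P072
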