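import Vale.Agent.Lib.P072.Defs

/-!
# Smoothness of the mass-action vector field and uniqueness of solutions
-/

open Set Metric
open scoped NNReal Topology

namespace Vale.Agent.Lib.P072

variable {d : ℕ}

theorem contDiff_mon (y : Cx d) : ContDiff ℝ 1 (fun x : Fin d → ℝ => mon x y) := by
  unfold mon
  exact contDiff_prod fun i _ => (contDiff_apply ℝ ℝ i).pow _

theorem contDiff_field (R : Finset (Rx d)) (k : Rx d → ℝ) : ContDiff ℝ 1 (field R k) := by
  unfold field
  exact ContDiff.sum fun r _ => (contDiff_const.mul (contDiff_mon r.1)).smul contDiff_const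

/-- Two solutions of the mass-action system on `[0, T)` with the same initial value agree. -/
theorem sol_unique (R : Finset (Rx d)) (k : Rx d → ℝ) {x y : ℝ → Fin d → ℝ} {T : ℝ}
    (hx : ∀ t, 0 ≤ t → t < T → HasDerivWithinAt x (field R k (x t)) (Ici 0) t)
    (hy : ∀ t, 0 ≤ t → t < T → HasDerivWithinAt y (field R k (y t)) (Ici 0) t)
    (h0 : x 0 = y 0) : ∀ t, 0 ≤ t → t < T → x t = y t := by
  intro t1 ht1 ht1T
  have hxc : ContinuousOn x (Icc 0 t1) := fun t ht =>
    ((hx t ht.1 (ht.2.trans_lt ht1T)).continuousWithinAt).mono Icc_subset_Ici_self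
  have hyc : ContinuousOn y (Icc 0 t1) := fun t ht =>
    ((hy t ht.1 (ht.2.trans_lt ht1T)).continuousWithinAt).mono Icc_subset_Ici_self
  obtain ⟨ρ1, hρ1⟩ := (isCompact_Icc.image_of_continuousOn hxc).isBounded.subset_closedBall 0
  obtain ⟨ρ2, hρ2⟩ := (isCompact_Icc.image_of_continuousOn hyc).isBounded.subset_closedBall 0
  set ρ := max ρ1 ρ2
  obtain ⟨K, hK⟩ := (contDiff_field R k).contDiffOn.exists_lipschitzOnWith
    (s := closedBall (0 : Fin d → ℝ) ρ) one_ne_zero (convex_closedBall 0 ρ)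
    (isCompact_closedBall 0 ρ)
  have := ODE_solution_unique_of_mem_Icc_right (v := fun _ => field R k)
    (s := fun _ => closedBall (0 : Fin d → ℝ) ρ) (K := K) (f := x) (g := y) (a := 0) (b := t1)
    (fun _ _ => hK) hxc
    (fun t ht => (hx t ht.1 (ht.2.trans_le ht1T.le |>.trans_le le_rfl)).mono
      (Ici_subset_Ici.2 ht.1))
    (fun t ht => closedBall_subset_closedBall (le_max_left _ _)
      (hρ1 ⟨t, Ico_subset_Icc_self ht, rfl⟩))
    hyc
    (fun t ht => (hy t ht.1 (ht.2.trans_le ht1T.le |>.trans_le le_rfl)).mono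
      (Ici_subset_Ici.2 ht.1))
    (fun t ht => closedBall_subset_closedBall (le_max_right _ _)
      (hρ2 ⟨t, Ico_subset_Icc_self ht, rfl⟩))
    h0
  exact this ⟨ht1, le_rfl⟩

end Vale.Agent.Lib.P072
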