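import Vale.Agent.Lib.P072.Box
import Vale.Agent.Lib.P072.Sign
import Vale.Agent.Lib.P072.Threshold
import Vale.Agent.Lib.P072.Unique

/-!
# Permanence for weakly reversible networks whose linkage classes lie on lines with pairwise
parallel or disjointly supported directions
-/

open Set

namespace Vale.Agent.Lib.P072

variable {d m : ℕ}

/-- the affine parametrisation `s ↦ c + ∑ b, s b • v b` -/
def param (c : Fin d → ℝ) (v : Fin m → Fin d → ℝ) (s : Fin m → ℝ) : Fin d → ℝ :=
  fun i => c i + ∑ b, s b * v b i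

section param

variable {c : Fin d → ℝ} {v : Fin m → Fin d → ℝ}

theorem param_apply_of_ne (hdisj : ∀ a b, a ≠ b → ∀ i, v a i = 0 ∨ v b i = 0) {b : Fin m}
    {i : Fin d} (h : v b i ≠ 0) (s : Fin m → ℝ) : param c v s i = c i + s b * v b i := by
  unfold param
  rw [Finset.sum_eq_single b]
  · intro b' _ hb'
    rw [(hdisj b' b hb' i).resolve_right h, mul_zero]
  · intro hb
    exact absurd (Finset.mem_univ b) hb

theorem param_apply_of_all_zero {i : Fin d} (h : ∀ b, v b i = 0) (s : Fin m → ℝ) :
    param c v s i = c i := by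
  unfold param
  simp [h]

theorem param_pos (hc : ∀ i, 0 < c i) (hdisj : ∀ a b, a ≠ b → ∀ i, v a i = 0 ∨ v b i = 0)
    {s : Fin m → ℝ} (hs : ∀ b i, 0 < c i + s b * v b i) (i : Fin d) : 0 < param c v s i := by
  by_cases h : ∃ b, v b i ≠ 0
  · obtain ⟨b, hb⟩ := h
    rw [param_apply_of_ne hdisj hb]
    exact hs b i
  · push Not at h
    rw [param_apply_of_all_zero h]
    exact hc i

theorem dom_of_param_pos (hc : ∀ i, 0 < c i)
    (hdisj : ∀ a b, a ≠ b → ∀ i, v a i = 0 ∨ v b i = 0)
    {s : Fin m → ℝ} (hs : ∀ i, 0 < param c v s i) (b : Fin m) (i : Fin d) :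
    0 < c i + s b * v b i := by
  by_cases h : v b i = 0
  · rw [h, mul_zero, add_zero]; exact hc i
  · rw [← param_apply_of_ne hdisj h]; exact hs i

theorem sum_log_param (hdisj : ∀ a b, a ≠ b → ∀ i, v a i = 0 ∨ v b i = 0) (b : Fin m)
    (s : Fin m → ℝ) :
    ∑ i, v b i * Real.log (param c v s i) = ∑ i, v b i * Real.log (c i + s b * v b i) := by
  refine Finset.sum_congr rfl fun i _ => ?_
  by_cases h : v b i = 0
  · rw [h, zero_mul, zero_mul]
  · rw [param_apply_of_ne hdisj h]

theorem contDiff_param : ContDiff ℝ 1 (param c v) := by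
  unfold param
  refine contDiff_pi.2 fun i => contDiff_const.add (ContDiff.sum fun b _ => ?_)
  exact (contDiff_apply ℝ ℝ b).mul contDiff_const

theorem hasDerivAt_param {s : ℝ → Fin m → ℝ} {s' : Fin m → ℝ} {t : ℝ} (h : HasDerivAt s s' t) :
    HasDerivAt (fun u => param c v (s u)) (fun i => ∑ b, s' b * v b i) t := by
  refine hasDerivAt_pi.2 fun i => ?_
  unfold param
  refine HasDerivAt.const_add (c i) (HasDerivAt.fun_sum fun b _ => ?_)
  exact ((hasDerivAt_pi.1 h) b).mul_const (v b i)

theorem ordConnected_dom (b : Fin m) : {t : ℝ | ∀ i, 0 < c i + t * v b i}.OrdConnected := by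
  refine ⟨fun x hx y hy z hz i => ?_⟩
  rcases le_or_gt 0 (v b i) with hw | hw
  · have := mul_le_mul_of_nonneg_right hz.1 hw
    linarith [hx i]
  · have := mul_le_mul_of_nonpos_right hz.2 hw.le
    linarith [hy i]

end param

/-- **Main theorem.** -/
theorem permanent_of_lines (R : Finset (Rx d)) (hne : ∀ r ∈ R, r.1 ≠ r.2) (k : Rx d → ℝ)
    (hk : ∀ r ∈ R, 0 < k r) (hwr : WeaklyReversible R)
    (v : Fin m → Fin d → ℝ) (blk : Cx d → Fin m)
    (hdisj : ∀ a b, a ≠ b → ∀ i, v a i = 0 ∨ v b i = 0)
    (hline : ∀ r ∈ R, blk r.1 = blk r.2 ∧ ∃ l : ℝ, rvec r = l • v (blk r.1))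
    (c : Fin d → ℝ) (hc : ∀ i, 0 < c i) : Permanent R k c := by
  classical
  -- the coefficients of the reaction vectors
  have hl : ∀ r : Rx d, ∃ l : ℝ, r ∈ R → rvec r = l • v (blk r.1) := fun r => by
    by_cases hr : r ∈ R
    · obtain ⟨l, hl⟩ := (hline r hr).2
      exact ⟨l, fun _ => hl⟩
    · exact ⟨0, fun h => absurd h hr⟩
  choose lam hlam using hl
  have hlam0 : ∀ r ∈ R, lam r ≠ 0 := by
    intro r hr h0
    apply rvec_ne_zero (hne r hr)
    rw [hlam r hr, h0, zero_smul]
  -- active directions
  set act : Fin m → Prop := fun b => ∃ r ∈ R, blk r.1 = b with hact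
  set v' : Fin m → Fin d → ℝ := fun b => if act b then v b else 0 with hv'
  have hv'act : ∀ b, act b → v' b = v b := fun b hb => by simp only [hv', if_pos hb]
  have hv'not : ∀ b, ¬ act b → v' b = 0 := fun b hb => by simp only [hv', if_neg hb]
  have hdisj' : ∀ a b, a ≠ b → ∀ i, v' a i = 0 ∨ v' b i = 0 := by
    intro a b hab i
    by_cases ha : act a
    · by_cases hb : act b
      · rw [hv'act a ha, hv'act b hb]; exact hdisj a b hab i
      · right; rw [hv'not b hb]; rfl
    · left; rw [hv'not a ha]; rfl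
  set g : Fin m → (Fin d → ℝ) → ℝ := fun b x =>
    ∑ r ∈ R.filter (fun r => blk r.1 = b), k r * mon x r.1 * lam r with hg
  have hfield : ∀ x, field R k x = fun i => ∑ b, g b x * v' b i := by
    intro x
    funext i
    simp only [field, Finset.sum_apply, Pi.smul_apply, smul_eq_mul, hg]
    rw [← Finset.sum_fiberwise R (fun r => blk r.1)]
    refine Finset.sum_congr rfl fun b _ => ?_
    rw [Finset.sum_mul]
    refine Finset.sum_congr rfl fun r hr => ?_
    obtain ⟨hrR, hrb⟩ := Finset.mem_filter.1 hr
    have hb : act b := ⟨r, hrR, hrb⟩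
    rw [hv'act b hb, hlam r hrR, hrb]
    simp only [Pi.smul_apply, smul_eq_mul]
    ring
  -- the vector field in the parameters
  set G : (Fin m → ℝ) → (Fin m → ℝ) := fun s b =>
    if act b then g b (param c v' s) else -s b with hG
  have hGact : ∀ s b, act b → G s b = g b (param c v' s) := fun s b hb => by
    simp only [hG, if_pos hb]
  have hGnot : ∀ s b, ¬ act b → G s b = -s b := fun s b hb => by
    simp only [hG, if_neg hb]
  have hGsmooth : ContDiff ℝ 1 G := by
    refine contDiff_pi.2 fun b => ?_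
    by_cases hb : act b
    · have : (fun s => G s b) = fun s => g b (param c v' s) := funext fun s => hGact s b hb
      rw [this]
      simp only [hg]
      exact ContDiff.sum fun r _ =>
        (contDiff_const.mul ((contDiff_mon r.1).comp contDiff_param)).mul contDiff_const
    · have : (fun s => G s b) = fun s => -s b := funext fun s => hGnot s b hb
      rw [this]
      exact (contDiff_apply ℝ ℝ b).neg
  have hGfield : ∀ s, field R k (param c v' s) = fun i => ∑ b, G s b * v' b i := by
    intro s
    rw [hfield]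
    funext i
    refine Finset.sum_congr rfl fun b _ => ?_
    by_cases hb : act b
    · rw [hGact s b hb]
    · rw [hv'not b hb]; simp
  -- thresholds
  have hthr : ∀ b, ∃ σm σp : ℝ, (∀ i, 0 < c i + σm * v' b i) ∧ (∀ i, 0 < c i + σp * v' b i) ∧
      (∀ s : Fin m → ℝ, (∀ b i, 0 < c i + s b * v' b i) → s b ≤ σm → 0 < G s b) ∧
      (∀ s : Fin m → ℝ, (∀ b i, 0 < c i + s b * v' b i) → σp ≤ s b → G s b < 0) := by
    intro b
    by_cases hb : act b
    · have hp : ∀ r ∈ R, blk r.1 = b ↔ blk r.2 = b := fun r hr => by rw [(hline r hr).1]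
      have hlam1 : ∀ r ∈ R, blk r.1 = b → rvec r = lam r • v b := fun r hr hrb => by
        rw [hlam r hr, hrb]
      have hlam2 : ∀ r ∈ R, blk r.1 = b → rvec r = (-lam r) • (-v b) := fun r hr hrb => by
        rw [hlam r hr, hrb, neg_smul_neg]
      have hvb : v b ≠ 0 := by
        obtain ⟨r, hr, hrb⟩ := hb
        intro h0
        apply rvec_ne_zero (hne r hr)
        rw [hlam1 r hr hrb, h0, smul_zero]
      obtain ⟨Λ1, hΛ1⟩ := sign_lemma R hne hwr (fun y => blk y = b) hp (v b) lam hlam1 k hk hb
      obtain ⟨Λ2, hΛ2⟩ := sign_lemma R hne hwr (fun y => blk y = b) hp (-v b)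
        (fun r => -lam r) hlam2 k hk hb
      obtain ⟨σm, -, hσm, hσm'⟩ := exists_lower_threshold c (v b) hc hvb Λ1
      obtain ⟨σp, -, hσp, hσp'⟩ := exists_upper_threshold c (v b) hc hvb Λ2
      rw [hv'act b hb]
      refine ⟨σm, σp, hσm, hσp, fun s hs hsb => ?_, fun s hs hsb => ?_⟩
      · rw [hGact s b hb]
        have hsb' : ∀ i, 0 < c i + s b * v b i := fun i => by
          have := hs b i
          rwa [hv'act b hb] at this
        refine hΛ1 _ (param_pos hc hdisj' hs) ?_
        have h1 := sum_log_param (c := c) hdisj' b s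
        rw [hv'act b hb] at h1
        rw [h1]
        exact hσm' (s b) hsb hsb'
      · rw [hGact s b hb]
        have hsb' : ∀ i, 0 < c i + s b * v b i := fun i => by
          have := hs b i
          rwa [hv'act b hb] at this
        have h2 := hΛ2 _ (param_pos hc hdisj' hs) (by
          have h1 := sum_log_param (c := c) hdisj' b s
          rw [hv'act b hb] at h1
          have h3 := hσp' (s b) hsb hsb'
          have h4 : ∑ i, (-v b) i * Real.log (param c v' s i)
              = -∑ i, v b i * Real.log (param c v' s i) := by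
            rw [← Finset.sum_neg_distrib]
            refine Finset.sum_congr rfl fun i _ => ?_
            simp only [Pi.neg_apply, neg_mul]
          rw [h4, h1]
          linarith)
        have h5 : ∑ r ∈ R.filter (fun r => blk r.1 = b), k r * mon (param c v' s) r.1 * -lam r
            = -g b (param c v' s) := by
          simp only [hg]
          rw [← Finset.sum_neg_distrib]
          refine Finset.sum_congr rfl fun r _ => ?_
          ring
        rw [h5] at h2
        linarith
    · rw [hv'not b hb]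
      refine ⟨-1, 1, fun i => by simpa using hc i, fun i => by simpa using hc i,
        fun s _ hsb => ?_, fun s _ hsb => ?_⟩
      · rw [hGnot s b hb]; linarith
      · rw [hGnot s b hb]; linarith
  choose σm σp hσm hσp hlo hhi using hthr
  -- `v' b` lies in the stoichiometric subspace
  have hv'S : ∀ b, v' b ∈ stoich R := by
    intro b
    by_cases hb : act b
    · obtain ⟨r, hr, hrb⟩ := hb
      have hb' : act b := ⟨r, hr, hrb⟩
      rw [hv'act b hb']
      have h1 : rvec r ∈ stoich R := Submodule.subset_span ⟨r, hr, rfl⟩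
      have h2 : v b = (lam r)⁻¹ • rvec r := by
        rw [hlam r hr, hrb, smul_smul, inv_mul_cancel₀ (hlam0 r hr), one_smul]
      rw [h2]
      exact (stoich R).smul_mem _ h1
    · rw [hv'not b hb]; exact (stoich R).zero_mem
  have hparamS : ∀ s, param c v' s - c ∈ stoich R := by
    intro s
    have : param c v' s - c = ∑ b, s b • v' b := by
      funext i
      simp [param, Finset.sum_apply]
    rw [this]
    exact (stoich R).sum_mem fun b _ => (stoich R).smul_mem _ (hv'S b)
  -- every point of the class is parametrised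
  have hsurj : ∀ x0 ∈ posClass R c, ∃ s0, param c v' s0 = x0 := by
    intro x0 hx0
    have h1 : stoich R ≤ Submodule.span ℝ (Set.range v') := by
      refine Submodule.span_le.2 ?_
      rintro _ ⟨r, hr, rfl⟩
      have hb : act (blk r.1) := ⟨r, hr, rfl⟩
      rw [SetLike.mem_coe, hlam r hr, ← hv'act _ hb]
      exact Submodule.smul_mem _ _ (Submodule.subset_span ⟨_, rfl⟩)
    obtain ⟨s0, hs0⟩ := (Submodule.mem_span_range_iff_exists_fun ℝ).1 (h1 hx0.2)
    refine ⟨s0, ?_⟩
    funext i
    have := congrFun hs0 i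
    simp only [Finset.sum_apply, Pi.smul_apply, smul_eq_mul, Pi.sub_apply] at this
    simp only [param, this]
    ring
  -- the construction of solutions
  set K : Set (Fin d → ℝ) := param c v' '' Icc σm σp with hK
  have hconstr : ∀ x0 ∈ posClass R c, ∃ x : ℝ → Fin d → ℝ, x 0 = x0 ∧ IsSol R k x ∧
      ∃ T : ℝ, ∀ t, T ≤ t → x t ∈ K := by
    intro x0 hx0
    obtain ⟨s0, hs0⟩ := hsurj x0 hx0
    have hs0dom : ∀ b i, 0 < c i + s0 b * v' b i :=
      dom_of_param_pos hc hdisj' (by rw [hs0]; exact hx0.1)
    obtain ⟨s, hs00, hdom, hder, T, hT⟩ := box_permanence G hGsmooth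
      (fun b => {t : ℝ | ∀ i, 0 < c i + t * v' b i}) (fun b => ordConnected_dom b) σm σp hσm hσp
      (fun s hs b hb => hlo b s hs hb) (fun s hs b hb => hhi b s hs hb) s0 hs0dom
    refine ⟨fun t => param c v' (s t), by simp only [hs00, hs0], fun t ht => ⟨?_, ?_⟩,
      T, fun t ht => ⟨s t, hT t ht, rfl⟩⟩
    · exact param_pos hc hdisj' (hdom t ht)
    · rw [hGfield]
      exact (hasDerivAt_param (hder t ht)).hasDerivWithinAt
  refine ⟨fun x0 hx0 => ?_, K, isCompact_Icc.image contDiff_param.continuous, ?_, ?_⟩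
  · obtain ⟨x, hx0', hsol, -⟩ := hconstr x0 hx0
    refine ⟨x, hx0', hsol, fun T y hy0 hy t ht htT => ?_⟩
    exact sol_unique R k (fun u hu huT => (hy u hu huT).2) (fun u hu _ => (hsol u hu).2)
      (by rw [hy0, hx0']) t ht htT
  · rintro _ ⟨s, hs, rfl⟩
    refine ⟨param_pos hc hdisj' fun b i => ?_, hparamS s⟩
    exact (ordConnected_dom (c := c) (v := v') b).out (hσm b) (hσp b) ⟨hs.1 b, hs.2 b⟩ i
  · intro y hy0 hy
    obtain ⟨x, hx0', hsol, T, hT⟩ := hconstr (y 0) hy0
    refine ⟨max T 0, fun t ht => ?_⟩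
    have ht0 : 0 ≤ t := (le_max_right _ _).trans ht
    have : y t = x t := sol_unique R k (T := t + 1) (fun u hu _ => (hy u hu).2)
      (fun u hu _ => (hsol u hu).2) hx0'.symm t ht0 (by linarith)
    rw [this]
    exact hT t ((le_max_left _ _).trans ht)

end Vale.Agent.Lib.P072
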